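import Vale.Agent.P234.Final

open Bundle Set Manifold
open scoped ContDiff Topology

namespace Vale.Agent.Results.P234.Villani

open Vale.Agent.P234

theorem result {E : Type*} [NormedAddCommGroup E] [NormedSpace ℝ E] [FiniteDimensional ℝ E]
    {M : Type*} [MetricSpace M] [ChartedSpace E M] [IsManifold 𝓘(ℝ, E) ∞ M]
    [CompactSpace M] [ConnectedSpace M]
    [RiemannianBundle (fun x : M => TangentSpace 𝓘(ℝ, E) x)]
    [IsContMDiffRiemannianBundle 𝓘(ℝ, E) ∞ E (fun x : M => TangentSpace 𝓘(ℝ, E) x)]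
    [IsRiemannianManifold 𝓘(ℝ, E) M] :
    (∀ (x : M) (v : TangentSpace 𝓘(ℝ, E) x), ∃! γ : ℝ → M, IsGeodesic x v γ) ∧
    (∀ (x : M) (v ξ η : TangentSpace 𝓘(ℝ, E) x), v ∈ injDom x →
      ContDiffAt ℝ ∞
        (fun q : ℝ × ℝ => cost (expMap x (q.2 • ξ)) (expMap x (v + q.1 • η))) 0) ∧
    (WeakMTW E M → ∀ x : M, Convex ℝ (injDom (E := E) x)) :=
  ⟨final_geod, final_smooth, final_convex⟩

end Vale.Agent.Results.P234.Villani
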